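import Crest.Agent.R18.Defs

/-! Row 18 block KP: classes modulo `m`-th powers, the projector onto an eigenspace. -/

set_option autoImplicit false

namespace Crest.Agent.R18.KP

/-- `Lˣ / (Lˣ) ^ m` -/
def Cl (L : Type*) [Field L] (m : ℕ) : Type _ := Additive (Lˣ ⧸ (powMonoidHom m : Lˣ →* Lˣ).range)

variable {L : Type*} [Field L] (m : ℕ)

noncomputable instance : AddCommGroup (Cl L m) :=
  inferInstanceAs (AddCommGroup (Additive (Lˣ ⧸ (powMonoidHom m : Lˣ →* Lˣ).range)))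

/-- the class of a unit -/
noncomputable def clU : Additive Lˣ →+ Cl L m :=
  MonoidHom.toAdditive (QuotientGroup.mk' (powMonoidHom m : Lˣ →* Lˣ).range)

theorem clU_eq_zero (u : Lˣ) : clU m (Additive.ofMul u) = 0 ↔ ∃ v : Lˣ, v ^ m = u :=
  QuotientGroup.eq_one_iff (N := (powMonoidHom m : Lˣ →* Lˣ).range) u

noncomputable instance : Module (ZMod m) (Cl L m) := AddCommGroup.zmodModule fun x => by
  obtain ⟨u, rfl⟩ : ∃ u : Lˣ, clU m (Additive.ofMul u) = x := QuotientGroup.mk_surjective x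
  rw [← map_nsmul, ← ofMul_pow, clU_eq_zero]
  exact ⟨u, rfl⟩

open Classical in
/-- the class of a nonzero element -/
noncomputable def cl (x : L) : Cl L m := if h : x = 0 then 0 else clU m (Additive.ofMul (Units.mk0 x h))

theorem cl_units (u : Lˣ) : cl m (u : L) = clU m (Additive.ofMul u) := by
  rw [cl, dif_neg u.ne_zero, Units.mk0_val]

theorem cl_mul {x y : L} (hx : x ≠ 0) (hy : y ≠ 0) : cl m (x * y) = cl m x + cl m y := by
  lift x to Lˣ using hx.isUnit
  lift y to Lˣ using hy.isUnit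
  rw [← Units.val_mul, cl_units, cl_units, cl_units, ofMul_mul, map_add]

theorem cl_zpow {x : L} (hx : x ≠ 0) (n : ℤ) : cl m (x ^ n) = n • cl m x := by
  lift x to Lˣ using hx.isUnit
  rw [← Units.val_zpow_eq_zpow_val, cl_units, cl_units, ofMul_zpow, map_zsmul]

theorem cl_pow {x : L} (hx : x ≠ 0) (n : ℕ) : cl m (x ^ n) = n • cl m x := by
  rw [← zpow_natCast, cl_zpow m hx, natCast_zsmul]

theorem cl_div {x y : L} (hx : x ≠ 0) (hy : y ≠ 0) : cl m (x / y) = cl m x - cl m y := by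
  rw [div_eq_mul_inv, cl_mul m hx (inv_ne_zero hy), ← zpow_neg_one, cl_zpow m hy, neg_smul, one_smul,
    sub_eq_add_neg]

theorem cl_one : cl m (1 : L) = 0 := by simpa using cl_pow m (one_ne_zero (α := L)) 0

theorem cl_prod {ι : Type*} (s : Finset ι) {x : ι → L} (hx : ∀ i, x i ≠ 0) :
    cl m (∏ i ∈ s, x i) = ∑ i ∈ s, cl m (x i) := by
  classical
  induction s using Finset.induction_on with
  | empty => simpa using cl_one m
  | insert a s ha ih =>
    rw [Finset.prod_insert ha, Finset.sum_insert ha, cl_mul m (hx a) (Finset.prod_ne_zero_iff.2 fun i _ => hx i), ih]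

theorem cl_pow_self {x : L} (hx : x ≠ 0) : cl m (x ^ m) = 0 := by
  rw [cl_pow m hx, ← Nat.cast_smul_eq_nsmul (ZMod m), ZMod.natCast_self, zero_smul]

theorem exists_of_cl {x : L} (hx : x ≠ 0) (h : cl m x = 0) : ∃ y : L, x = y ^ m := by
  lift x to Lˣ using hx.isUnit
  obtain ⟨v, rfl⟩ := (clU_eq_zero m x).1 (cl_units m x ▸ h)
  exact ⟨v, Units.val_pow_eq_pow_val v m⟩

theorem exists_act (σ : L →+* L) : ∃ φ : Cl L m →ₗ[ZMod m] Cl L m, ∀ x, φ (cl m x) = cl m (σ x) := by
  refine ⟨AddMonoidHom.toZModLinearMap m (M := Cl L m) (M₁ := Cl L m) (MonoidHom.toAdditive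
    (QuotientGroup.map _ _ (Units.map (σ : L →* L)) ?_)), fun x => ?_⟩
  · rintro _ ⟨v, rfl⟩
    exact ⟨Units.map (σ : L →* L) v, (map_pow _ v m).symm⟩
  · by_cases hx : x = 0
    · rw [hx, map_zero σ, cl, dif_pos rfl, map_zero]
    · lift x to Lˣ using Ne.isUnit hx
      rw [cl_units]
      exact (cl_units m (Units.map (σ : L →* L) x)).symm

/-- the projector `∑ θ δ • φ δ` -/
theorem proj {A R Δ ι : Type*} [AddCommGroup A] [CommRing R] [Module R A] [Group Δ] [Fintype Δ]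
    (φ : Δ → A →ₗ[R] A) (θ : Δ →* Rˣ) (u : ι → Δ → A) (hφ : ∀ δ δ' i, φ δ (u i δ') = u i (δ * δ')) :
    ∃ v : ι → A, ∀ x ∈ Submodule.span R {a | ∃ i δ, a = u i δ}, (∀ δ, (θ δ : R) • φ δ x = x) →
      Fintype.card Δ • x ∈ Submodule.span R (Set.range v) := by
  refine ⟨fun i => ∑ δ, (θ δ : R) • u i δ, fun x hx h => ?_⟩
  have h1 : Submodule.span R {a | ∃ i δ, a = u i δ} ≤ (Submodule.span R
      (Set.range fun i => ∑ δ, (θ δ : R) • u i δ)).comap (∑ δ, (θ δ : R) • φ δ) := by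
    rw [Submodule.span_le]
    rintro _ ⟨i, δ', rfl⟩
    have : (∑ δ, (θ δ : R) • φ δ) (u i δ') = ((θ δ')⁻¹ : Rˣ).val • ∑ δ, (θ δ : R) • u i δ := by
      rw [← Equiv.sum_comp (Equiv.mulRight δ') fun δ => (θ δ : R) • u i δ, Finset.smul_sum, LinearMap.sum_apply]
      refine Finset.sum_congr rfl fun δ _ => ?_
      rw [LinearMap.smul_apply, hφ, Equiv.coe_mulRight, smul_smul, ← Units.val_mul, map_mul, mul_comm (θ δ),
        inv_mul_cancel_left]
    rw [SetLike.mem_coe, Submodule.mem_comap, this]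
    exact Submodule.smul_mem _ _ (Submodule.subset_span ⟨i, rfl⟩)
  simpa only [Submodule.mem_comap, LinearMap.sum_apply, LinearMap.smul_apply, h, Finset.sum_const,
    Finset.card_univ] using h1 hx

end Crest.Agent.R18.KP
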