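import Crest.Agent.R18.Tower
import Crest.Agent.R18.Dec
import Crest.Agent.R18.MU
import Crest.Agent.R18.KP.Cl

/-! Row 18 block KP: the eigenspaces of `ℓ`-units modulo `m`-th powers are small. -/

set_option autoImplicit false
set_option linter.unusedSectionVars false
open scoped Pointwise NumberField
open IsDedekindDomain Crest.NumberTheoryR IntermediateField NumberField

namespace Crest.Agent.R18.KP

instance isGalois_qb : IsGalois ℚ Qb :=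
  @IsAlgClosure.isGalois ℚ Qb _ _ _ (AlgebraicClosure.instIsAlgClosure ℚ) _

section
variable {K L : Type*} [Field K] [NumberField K] [Field L]

/-- `A` lies above `𝔭` -/
def Ab (ι : K →+* L) (A : ValuationSubring L) (𝔭 : HeightOneSpectrum (𝓞 K)) : Prop :=
  ∀ x y : K, A.valuation (ι x) ≤ A.valuation (ι y) ↔ 𝔭.valuation K x ≤ 𝔭.valuation K y

variable {ι : K →+* L} {A : ValuationSubring L} {𝔭 : HeightOneSpectrum (𝓞 K)}

theorem Ab.mem (h : Ab ι A 𝔭) (x : K) : ι x ∈ A ↔ 𝔭.valuation K x ≤ 1 := by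
  simpa only [map_one, ValuationSubring.valuation_le_one_iff] using h x 1

theorem Ab.ord_eq (h : Ab ι A 𝔭) {x y : K} (hx : x ≠ 0) (hy : y ≠ 0) :
    A.valuation (ι x) = A.valuation (ι y) ↔ ord 𝔭 x = ord 𝔭 y := by
  rw [le_antisymm_iff, le_antisymm_iff, h, h, ord_le_iff 𝔭 hx hy, ord_le_iff 𝔭 hy hx, and_comm]

theorem Ab.unit (h : Ab ι A 𝔭) {x : K} (hx : x ≠ 0) : A.valuation (ι x) = 1 ↔ ord 𝔭 x = 0 := by
  rw [ord_eq_zero_iff 𝔭 hx, le_antisymm_iff, le_antisymm_iff]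
  simpa only [map_one] using and_congr (h x 1) (h 1 x)

theorem Ab.over (h : Ab ι A 𝔭) {p : ℕ} (hp : p.Prime) : Over A p ↔ (p : 𝓞 K) ∈ 𝔭.asIdeal := by
  rw [← 𝔭.valuation_lt_one_iff_mem (K := K), Over, and_iff_right hp, ← not_le, ← not_le]
  simpa only [map_one, map_natCast] using (h 1 p).not

end

theorem nf_span (K L : Type*) [Field K] [NumberField K] [Field L] [NumberField L] [Algebra K L] [IsGalois K L]
    {ι : Type*} (ϖ : ι → L) (h0 : ∀ i, ϖ i ≠ 0) {ℓ : ℕ} (hℓ : ℓ ≠ 0)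
    (h : ∀ 𝔏 : HeightOneSpectrum (𝓞 L), (ℓ : 𝓞 L) ∈ 𝔏.asIdeal →
      ∃ (i : ι) (σ : L ≃ₐ[K] L) (e : ℤ), e ≠ 0 ∧ dv (σ (ϖ i)) = Finsupp.single 𝔏 e) :
    ∃ (u : InfinitePlace K ⊕ ι → L) (c : ℕ), 0 < c ∧ ∀ (m : ℕ) (x : L), x ≠ 0 →
      (∀ 𝔭 : HeightOneSpectrum (𝓞 L), (ℓ : 𝓞 L) ∉ 𝔭.asIdeal → (m : ℤ) ∣ ord 𝔭 x) →
      c • cl m x ∈ Submodule.span (ZMod m) {a | ∃ i, ∃ σ : L ≃ₐ[K] L, a = cl m (σ (u i))} := by
  obtain ⟨u, c, hc, hu⟩ := mu1 K L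
  obtain ⟨n, hn, hcl⟩ := exists_class_exp L
  choose i σ e he hd using h
  haveI := (finite_primes_over (K := L) hℓ).fintype
  obtain ⟨e₀, he₀, hdv⟩ : ∃ e₀ : ℕ, 0 < e₀ ∧ ∀ 𝔏 h, e 𝔏 h ∣ e₀ :=
    ⟨∏ 𝔏 : {𝔭 : HeightOneSpectrum (𝓞 L) | (ℓ : 𝓞 L) ∈ 𝔭.asIdeal}, (e 𝔏.1 𝔏.2).natAbs,
      Finset.prod_pos fun 𝔏 _ => Int.natAbs_pos.2 (he _ _), fun 𝔏 h => Int.dvd_natCast.2
        (Finset.dvd_prod_of_mem (fun 𝔏 : {𝔭 : HeightOneSpectrum (𝓞 L) | (ℓ : 𝓞 L) ∈ 𝔭.asIdeal} =>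
          (e 𝔏.1 𝔏.2).natAbs) (Finset.mem_univ ⟨𝔏, h⟩))⟩
  refine ⟨Sum.elim (fun v => ((u v : 𝓞 L) : L)) ϖ, c * (n * e₀), by positivity, fun m x hx hm => ?_⟩
  set N := Submodule.span (ZMod m)
    {a | ∃ i, ∃ σ : L ≃ₐ[K] L, a = cl m (σ (Sum.elim (fun v => ((u v : 𝓞 L) : L)) ϖ i))}
  obtain ⟨y, hy, hyN, hxy⟩ : ∃ y : L, y ≠ 0 ∧ cl m y ∈ N ∧ dv y = (n * e₀) • dv x := by
    rw [← Finsupp.sum_single (dv x)]
    refine Finset.sum_induction _ (fun D => ∃ y : L, y ≠ 0 ∧ cl m y ∈ N ∧ dv y = (n * e₀) • D) ?_ ?_ fun 𝔭 _ => ?_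
    · rintro D D' ⟨y, h1, h2, h3⟩ ⟨y', h1', h2', h3'⟩
      exact ⟨y * y', mul_ne_zero h1 h1', cl_mul m h1 h1' ▸ N.add_mem h2 h2', by
        rw [dv_mul h1 h1', h3, h3', smul_add]⟩
    · exact ⟨1, one_ne_zero, cl_one (L := L) m ▸ N.zero_mem, by simpa using dv_zpow (1 : L) 0⟩
    by_cases h : (ℓ : 𝓞 L) ∈ 𝔭.asIdeal
    · obtain ⟨k, hk⟩ := hdv 𝔭 h
      have h1 := (map_ne_zero (σ 𝔭 h)).2 (h0 (i 𝔭 h))
      refine ⟨σ 𝔭 h (ϖ (i 𝔭 h)) ^ (n * k * dv x 𝔭), zpow_ne_zero _ h1, ?_, ?_⟩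
      · rw [cl_zpow m h1]
        exact zsmul_mem (Submodule.subset_span (by exact ⟨Sum.inr _, _, rfl⟩)) _
      · rw [dv_zpow, hd, Finsupp.smul_single, Finsupp.smul_single, nsmul_eq_mul, Nat.cast_mul, hk, smul_eq_mul]
        congr 1; ring
    · obtain ⟨k, hk⟩ := hm 𝔭 h
      obtain ⟨y, hy, hy'⟩ := hcl (Finsupp.single 𝔭 (e₀ * k))
      refine ⟨y ^ m, pow_ne_zero _ hy, (cl_pow_self m hy).symm ▸ N.zero_mem, ?_⟩
      rw [← zpow_natCast, dv_zpow, hy', dv_apply, hk]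
      simp only [Finsupp.smul_single, nsmul_eq_mul, smul_eq_mul, Nat.cast_mul]
      congr 1; ring
  have h1 := pow_ne_zero (n * e₀) hx
  obtain ⟨v, hv⟩ := (dv_eq_zero_iff (div_ne_zero h1 hy)).1 (by
    rw [div_eq_mul_inv, dv_mul h1 (inv_ne_zero hy), ← zpow_neg_one, dv_zpow, ← zpow_natCast, dv_zpow, hxy,
      natCast_zsmul, neg_smul, one_smul, add_neg_cancel])
  obtain ⟨a, ha⟩ := hu v
  have h2 : ∀ (w : InfinitePlace K) (τ : L ≃ₐ[K] L), τ ((u w : 𝓞 L) : L) ≠ 0 := fun w τ =>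
    (map_ne_zero τ).2 (by simp)
  have h3 : cl m ((x ^ (n * e₀) / y) ^ c) ∈ N := by
    rw [hv, ha, cl_prod m _ fun w => Finset.prod_ne_zero_iff.2 fun τ _ => zpow_ne_zero _ (h2 w τ)]
    refine N.sum_mem fun w _ => ?_
    rw [cl_prod m _ fun τ => zpow_ne_zero _ (h2 w τ)]
    refine N.sum_mem fun τ _ => ?_
    rw [cl_zpow m (h2 w τ)]
    exact zsmul_mem (Submodule.subset_span (by exact ⟨Sum.inl _, _, rfl⟩)) _
  rw [cl_pow m (div_ne_zero h1 hy), cl_div m h1 hy, cl_pow m hx, smul_sub, smul_smul] at h3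
  simpa using N.add_mem h3 (nsmul_mem hyN c)

variable {U U' : Subgroup Gam}

theorem fix_conj (hn : ∀ u ∈ U, ∀ w ∈ U', u * w * u⁻¹ ∈ U') {h : Gam} (hh : h ∈ U) {x : Qb} (hx : Fix U' x) :
    Fix U' (h x) := fun w hw => by
  have := congrArg h (hx _ (hn _ (U.inv_mem hh) w hw))
  simpa using this

theorem ell_gens (hU' : IsOpen (U' : Set Gam)) (hn : ∀ u ∈ U, ∀ w ∈ U', u * w * u⁻¹ ∈ U')
    [NumberField (fixedField U')] {ℓ : ℕ} (hℓ : ℓ.Prime) :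
    ∃ ϖ : Gam ⧸ U → fixedField U', (∀ i, ϖ i ≠ 0) ∧ ∀ 𝔏 : HeightOneSpectrum (𝓞 (fixedField U')),
      (ℓ : 𝓞 (fixedField U')) ∈ 𝔏.asIdeal → ∃ i, ∃ h ∈ U, ∀ π : fixedField U',
        (π : Qb) = h (ϖ i) → ord 𝔏 π ≠ 0 ∧ dv π = Finsupp.single 𝔏 (ord 𝔏 π) := by
  obtain ⟨B₀, hB₀⟩ := exists_val (L := Qb) hℓ
  obtain ⟨n, -, hv⟩ := varpi U' hU'
  choose ϖ h0 hf hlt hun _ using fun i : Gam ⧸ U => hv (i.out⁻¹ • B₀) ℓ (hB₀.smul _)
  refine ⟨fun i => ⟨ϖ i, (fix_iff_mem _ _).1 (hf i)⟩, fun i h => h0 i (congrArg Subtype.val h), fun 𝔏 h𝔏 => ?_⟩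
  obtain ⟨B, -, -, -, hval⟩ := exists_val_above (fixedField U').val.toRingHom 𝔏
  obtain ⟨γ, rfl⟩ := conj_rat hB₀ ((Ab.over hval hℓ).2 h𝔏)
  obtain ⟨⟨h, hU⟩, hh⟩ := QuotientGroup.mk_out_eq_mul U γ⁻¹
  generalize QuotientGroup.mk (s := U) γ⁻¹ = i at hh
  rw [show γ • B₀ = h • i.out⁻¹ • B₀ by rw [hh, mul_inv_rev, inv_inv, smul_smul, mul_inv_cancel_left]] at hval
  refine ⟨i, h, hU, fun π (hπ : (fixedField U').val.toRingHom π = h (ϖ i)) => ?_⟩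
  have hπ0 : π ≠ 0 := fun e => h0 i (by simpa [e] using hπ.symm)
  refine ⟨fun e => (hlt i).ne ((val_smul_eq_one h _ _).1 (hπ ▸ (Ab.unit hval hπ0).2 e)), Finsupp.ext fun 𝔭 => ?_⟩
  rw [dv_apply]
  by_cases e : 𝔭 = 𝔏
  · rw [e, Finsupp.single_eq_same]
  rw [Finsupp.single_eq_of_ne e]
  obtain ⟨B, p, hB, -, hval'⟩ := exists_val_above (fixedField U').val.toRingHom 𝔭
  obtain ⟨B, rfl⟩ : ∃ B' : ValuationSubring Qb, h • B' = B := ⟨h⁻¹ • B, smul_inv_smul _ _⟩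
  have hB' : Over B p := by simpa using hB.smul h⁻¹
  refine (Ab.unit hval' hπ0).1 (hπ ▸ (val_smul_eq_one h _ _).2 (hun i B hB'.ne_top fun hA => e ?_))
  refine prime_eq_of_val fun x => ?_
  have := hA _ (fix_conj hn (U.inv_mem hU) ((fix_iff_mem _ _).2 x.2))
  rw [← mem_smul_val h, ← mem_smul_val h B] at this
  rw [← Ab.mem hval, ← Ab.mem hval']
  simpa using this.symm

/-- the order of `x` is divisible by `m` outside `ℓ` -/
def Dv (U : Subgroup Gam) (ℓ m : ℕ) (x : Qb) : Prop :=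
  ∀ (A : ValuationSubring Qb) (p : ℕ), Over A p → p ≠ ℓ → ∃ y, Fix U y ∧ A.valuation x = A.valuation (y ^ m)

theorem bound (hU' : IsOpen (U' : Set Gam)) (hle : U' ≤ U) (hn : ∀ u ∈ U, ∀ w ∈ U', u * w * u⁻¹ ∈ U')
    {ℓ : ℕ} (hℓ : ℓ.Prime) : ∃ c : ℕ, 0 < c ∧ ∀ (m : ℕ) [NeZero m] (θ₁ θ₂ : Gam → (ZMod m)ˣ),
      (∀ g ∈ U, ∀ h ∈ U, θ₁ (g * h) = θ₁ g * θ₁ h) → (∀ g ∈ U, ∀ h ∈ U, θ₂ (g * h) = θ₂ g * θ₂ h) →
      (∀ g ∈ U', θ₁ g = θ₂ g) → ∀ (X : Type) [Fintype X] (x : X → Qb),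
      (∀ a, x a ≠ 0 ∧ Fix U' (x a) ∧ Dv U' ℓ m (x a) ∧ ∀ g ∈ U, ∃ u, Fix U' u ∧
        g (x a) ^ (θ₁ g : ZMod m).val = x a ^ (θ₂ g : ZMod m).val * u ^ m) →
      (∀ a b u, Fix U' u → (x a / x b) ^ c = u ^ m → a = b) → Fintype.card X ≤ m ^ (2 * U.index) := by
  classical
  letI := towerAlg hle
  obtain ⟨hG, -, res, hsurj, hres, hker⟩ := tower hU' hle hn
  have hU : IsOpen (U : Set Gam) := Subgroup.isOpen_mono hle hU'
  haveI := numberField_fixedField U hU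
  haveI := numberField_fixedField U' hU'
  haveI := finiteIndex_of_open U hU
  haveI := U.fintypeQuotientOfFiniteIndex
  obtain ⟨ϖ, h0, hϖ⟩ := ell_gens hU' hn hℓ
  obtain ⟨u, c, hc, hu⟩ := nf_span (fixedField U) (fixedField U') ϖ h0 hℓ.ne_zero fun 𝔏 h => by
    obtain ⟨i, g, hg, h⟩ := hϖ 𝔏 h
    exact ⟨i, res ⟨g, hg⟩, _, h _ (hres _ _)⟩
  refine ⟨Fintype.card (fixedField U' ≃ₐ[fixedField U] fixedField U') * c, mul_pos Fintype.card_pos hc,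
    fun m _ θ₁ θ₂ h1 h2 h12 X _ x hx hinj => ?_⟩
  choose φ hφ using fun σ : fixedField U' ≃ₐ[fixedField U] fixedField U' =>
    exists_act m (σ : fixedField U' →+* fixedField U')
  let θ : U →* (ZMod m)ˣ := MonoidHom.mk' (fun g => θ₁ g / θ₂ g) fun g h => by
    rw [Subgroup.coe_mul, h1 _ g.2 _ h.2, h2 _ g.2 _ h.2, div_mul_div_comm]
  have hθ : res.ker ≤ θ.ker := fun g hg => div_eq_one.2 (h12 _ ((hker g).1 hg))
  obtain ⟨v, hv⟩ := proj φ (res.liftOfSurjective hsurj ⟨θ, hθ⟩) (fun i σ => cl m (σ (u i))) fun σ τ i => hφ σ _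
  choose x' hx' using fun a => (⟨⟨x a, (fix_iff_mem _ _).1 (hx a).2.1⟩, rfl⟩ : ∃ y : fixedField U', (y : Qb) = x a)
  have hx0 : ∀ a, x' a ≠ 0 := fun a e => (hx a).1 (by rw [← hx', e]; rfl)
  have key : ∀ a, (Fintype.card (fixedField U' ≃ₐ[fixedField U] fixedField U') * c) • cl m (x' a) ∈
      Submodule.span (ZMod m) (Set.range v) := fun a => by
    rw [mul_smul]
    refine hv _ (hu m _ (hx0 a) fun 𝔭 h => ?_) fun σ => ?_
    · obtain ⟨B, p, hB, hp, hval⟩ := exists_val_above (fixedField U').val.toRingHom 𝔭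
      obtain ⟨y, hy, e⟩ := (hx a).2.2.1 B p hB fun e => h (e ▸ hp)
      lift y to fixedField U' using (fix_iff_mem _ _).1 hy
      have hy0 : y ^ m ≠ 0 := fun e' => (hx a).1 (by
        rwa [← IntermediateField.coe_pow, e', ZeroMemClass.coe_zero, map_zero, map_eq_zero] at e)
      rw [(Ab.ord_eq hval (hx0 a) hy0).1 (by simpa [hx'] using e), ← zpow_natCast, ord_zpow]
      exact dvd_mul_right _ _
    · obtain ⟨g, rfl⟩ := hsurj σ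
      obtain ⟨y, hy, e⟩ := (hx a).2.2.2 g g.2
      lift y to fixedField U' using (fix_iff_mem _ _).1 hy
      have e' : res g (x' a) ^ (θ₁ g : ZMod m).val = x' a ^ (θ₂ g : ZMod m).val * y ^ m :=
        Subtype.ext (by simpa [hres, hx'] using e)
      have h3 := (map_ne_zero (res g)).2 (hx0 a)
      have h4 := right_ne_zero_of_mul (e' ▸ pow_ne_zero _ h3)
      have h5 := congrArg (cl m) e'
      rw [cl_mul m (pow_ne_zero _ (hx0 a)) h4, cl_pow_self m (ne_zero_pow (NeZero.ne m) h4), add_zero,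
        cl_pow m h3, cl_pow m (hx0 a), ← Nat.cast_smul_eq_nsmul (ZMod m), ← Nat.cast_smul_eq_nsmul (ZMod m),
        ZMod.natCast_zmod_val, ZMod.natCast_zmod_val] at h5
      rw [MonoidHom.liftOfRightInverse_comp_apply, map_nsmul, smul_comm, hφ]
      congr 1
      show ((θ₁ g / θ₂ g : (ZMod m)ˣ) : ZMod m) • cl m (res g (x' a)) = _
      rw [div_eq_inv_mul, Units.val_mul, mul_smul, h5, smul_smul, Units.inv_mul, one_smul]
  choose Φ hΦ using fun a => (Submodule.mem_span_range_iff_exists_fun _).1 (key a)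
  refine (Fintype.card_le_of_injective Φ fun a b e => ?_).trans ?_
  · obtain ⟨y, hy⟩ := exists_of_cl m (pow_ne_zero
      (Fintype.card (fixedField U' ≃ₐ[fixedField U] fixedField U') * c) (div_ne_zero (hx0 a) (hx0 b))) (by
        rw [cl_pow m (div_ne_zero (hx0 a) (hx0 b)), cl_div m (hx0 a) (hx0 b), smul_sub, ← hΦ, ← hΦ, e, sub_self])
    exact hinj a b y ((fix_iff_mem _ _).2 y.2) (by simpa [hx'] using congrArg Subtype.val hy)
  · rw [Fintype.card_fun, ZMod.card, Fintype.card_sum, two_mul]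
    refine Nat.pow_le_pow_right (NeZero.pos m) (add_le_add ?_ ?_)
    · have := InfinitePlace.card_add_two_mul_card_eq_rank (fixedField U)
      rw [InfinitePlace.card_eq_nrRealPlaces_add_nrComplexPlaces, ← finrank_fixedField U hU]
      exact le_trans (by omega) this.le
    · rw [U.index_eq_card, Nat.card_eq_fintype_card]

end Crest.Agent.R18.KP
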