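import Crest.Agent.R18.Kum
import Crest.Agent.R18.KP.Bound

/-! Row 18 block KP: pull-back of Kummer classes. -/

set_option autoImplicit false
set_option linter.unusedSectionVars false
open scoped Pointwise NumberField
open IsDedekindDomain Crest.NumberTheoryR

namespace Crest.Agent.R18.KP

variable {F E : Type*} [Field F] [NumberField F] [Field E] [Algebra F E] [IsGalois F E]

theorem transfer {L L' : Type*} [Field L] [Field L'] {m : ℕ} [NeZero m] {ζ : L} {ξ : L'} (hζ : IsPrimitiveRoot ζ m)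
    (hξ : IsPrimitiveRoot ξ m) {i j : ℤ} (h : ζ ^ i = ζ ^ j) : ξ ^ i = ξ ^ j := by
  rw [← div_eq_one_iff_eq (zpow_ne_zero j (hζ.ne_zero (NeZero.ne m))), ← zpow_sub₀ (hζ.ne_zero (NeZero.ne m)),
    hζ.zpow_eq_one_iff_dvd, ← hξ.zpow_eq_one_iff_dvd, zpow_sub₀ (hξ.ne_zero (NeZero.ne m))] at h
  exact (div_eq_one_iff_eq (zpow_ne_zero j (hξ.ne_zero (NeZero.ne m)))).1 h

/-- the cyclotomic character modulo `ℓ ^ k` -/
noncomputable def cm (ℓ : ℕ) [Fact ℓ.Prime] (k : ℕ) (g : E ≃ₐ[F] E) : (ZMod (ℓ ^ k))ˣ :=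
  Units.map (PadicInt.toZModPow k : ℤ_[ℓ] →+* ZMod (ℓ ^ k)).toMonoidHom (chi ℓ g)

variable {ℓ : ℕ} [Fact ℓ.Prime] {k : ℕ}

theorem cm_mul (g h : E ≃ₐ[F] E) : cm ℓ k (g * h) = cm ℓ k g * cm ℓ k h := by
  rw [cm, chi_mul, map_mul]; rfl

theorem cm_spec (hE : IsSolvablyClosed E) (g : E ≃ₐ[F] E) {ζ : E} (hζ : IsPrimitiveRoot ζ (ℓ ^ k)) :
    g ζ = ζ ^ (cm ℓ k g : ZMod (ℓ ^ k)).val := chi_spec hE ℓ g k ζ hζ.pow_eq_one

theorem exists_open_cm (hE : IsSolvablyClosed E) :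
    ∃ W : Subgroup (E ≃ₐ[F] E), IsOpen (W : Set (E ≃ₐ[F] E)) ∧ ∀ g ∈ W, cm ℓ 1 g = 1 := by
  have hℓ : 1 < ℓ ^ 1 := by simpa using (Fact.out : ℓ.Prime).one_lt
  haveI := cz F E
  obtain ⟨ζ, hζ⟩ := sc_prim hE (zero_lt_one.trans hℓ)
  obtain ⟨W, -, hW, hf⟩ := exists_open_fix (F := F) {ζ} (Set.finite_singleton ζ)
  refine ⟨W, hW, fun g hg => Units.ext ?_⟩
  have := hζ.pow_inj (ZMod.val_lt _) hℓ (((cm_spec hE g hζ).symm.trans (hf ζ rfl g hg)).trans (pow_one ζ).symm)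
  rw [← ZMod.natCast_zmod_val (cm ℓ 1 g : ZMod (ℓ ^ 1)), this, Nat.cast_one, Units.val_one]

/-- a subgroup on which the two cyclotomic characters agree modulo `ℓ ^ k` -/
structure Good (S : PreSetup F E) (ℓ : ℕ) [Fact ℓ.Prime] (k : ℕ) (U' : Subgroup Gam) : Prop where
  op : IsOpen (U' : Set Gam)
  le : U' ≤ S.H
  nm : ∀ u ∈ S.H, ∀ w ∈ U', u * w * u⁻¹ ∈ U'
  cop : Nat.Coprime (U'.relIndex S.H) ℓ
  eq : ∀ h ∈ U', cm ℓ k (S.a h) = cm ℓ k h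

theorem exists_good (hE : IsSolvablyClosed E) (S : PreSetup F E) (ℓ : ℕ) [Fact ℓ.Prime] :
    ∃ U', Good S ℓ 1 U' ∧ (CaseA S ℓ → ∀ k, Good S ℓ k U') := by
  have hℓ : ℓ.Prime := Fact.out
  let θ : S.H →* (ZMod (ℓ ^ 1))ˣ := MonoidHom.mk' (fun h => cm ℓ 1 (S.a h) / cm ℓ 1 (h : Gam)) fun g h => by
    rw [Subgroup.coe_mul, S.mul _ g.2 _ h.2, cm_mul, cm_mul, div_mul_div_comm]
  have h1 : Good S ℓ 1 (θ.ker.map S.H.subtype) := by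
    refine ⟨?_, Subgroup.map_subtype_le _, ?_, ?_, ?_⟩
    · obtain ⟨W, hW, h⟩ := exists_open_cm (F := F) (ℓ := ℓ) hE
      obtain ⟨W', hW', h'⟩ := exists_open_cm (F := ℚ) (ℓ := ℓ) sc_qb
      refine Subgroup.isOpen_mono (H₁ := S.pre W ⊓ W') (fun g hg => ⟨⟨g, hg.1.1⟩, ?_, rfl⟩)
        ((S.pre_open W hW).inter hW')
      exact div_eq_one.2 ((h _ hg.1.2).trans (h' _ hg.2).symm)
    · rintro u hu _ ⟨w, hw, rfl⟩
      exact ⟨_, θ.normal_ker.conj_mem w hw ⟨u, hu⟩, rfl⟩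
    · rw [Subgroup.relIndex, Subgroup.subgroupOf, Subgroup.comap_map_eq_self_of_injective S.H.subtype_injective,
        Subgroup.index_ker]
      refine Nat.Coprime.coprime_dvd_left (Subgroup.card_subgroup_dvd_card _) ?_
      rw [Nat.card_eq_fintype_card, ZMod.card_units_eq_totient, pow_one, Nat.totient_prime hℓ]
      exact (Nat.coprime_of_lt_prime (by have := hℓ.two_le; omega) (by have := hℓ.two_le; omega) hℓ).symm
    · rintro _ ⟨w, hw, rfl⟩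
      exact div_eq_one.1 hw
  refine ⟨_, h1, fun hA k => ⟨h1.op, h1.le, h1.nm, h1.cop, fun h hh => ?_⟩⟩
  suffices e : chi ℓ (S.a h) / chi ℓ h = 1 by rw [cm, div_eq_one.1 e, cm]
  have h2 : (chi ℓ (S.a h) / chi ℓ h) ^ (ℓ - 1) = 1 := by rw [div_pow, hA h (h1.le hh), div_self']
  have h3 : Units.map (PadicInt.toZModPow 1 : ℤ_[ℓ] →+* ZMod (ℓ ^ 1)).toMonoidHom (chi ℓ (S.a h) / chi ℓ h) = 1 := by
    rw [map_div]; exact div_eq_one.2 (h1.eq h hh)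
  generalize chi ℓ (S.a h) / chi ℓ h = u at h2 h3
  have h4 : PadicInt.toZModPow 1 (u : ℤ_[ℓ]) = 1 := congrArg Units.val h3
  have h5 := geom_sum_mul (u : ℤ_[ℓ]) (ℓ - 1)
  rw [← Units.val_pow_eq_pow_val, h2, Units.val_one, sub_self, mul_eq_zero] at h5
  refine Units.ext (sub_eq_zero.1 (h5.resolve_left fun h6 => ?_))
  have h7 := congrArg (PadicInt.toZModPow 1) h6
  simp only [map_sum, map_pow, h4, one_pow, Finset.sum_const, Finset.card_range, nsmul_eq_mul, mul_one, map_zero,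
    ZMod.natCast_eq_zero_iff, pow_one] at h7
  have := hℓ.two_le
  have := Nat.le_of_dvd (by omega) h7
  omega

/-- the Kummer cocycle of `w` is the pull-back of the Kummer cocycle of `z` -/
def PB (S : PreSetup F E) (U' : Subgroup Gam) (ζ : E) (ξ : Qb) (z : E) (w : Qb) : Prop :=
  ∀ h ∈ U', ∃ j : ℤ, S.a h z = ζ ^ j * z ∧ h w = ξ ^ j * w

variable {S : PreSetup F E} {U' : Subgroup Gam} {ζ z z' : E} {ξ w w' : Qb}
  (hζ : IsPrimitiveRoot ζ (ℓ ^ k)) (hξ : IsPrimitiveRoot ξ (ℓ ^ k))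

theorem PB.zpow (h : PB S U' ζ ξ z w) (n : ℤ) : PB S U' ζ ξ (z ^ n) (w ^ n) := fun g hg => by
  obtain ⟨j, h1, h2⟩ := h g hg
  exact ⟨j * n, by rw [map_zpow₀, h1, mul_zpow, zpow_mul], by rw [map_zpow₀, h2, mul_zpow, zpow_mul]⟩

theorem PB.pow (h : PB S U' ζ ξ z w) (n : ℕ) : PB S U' ζ ξ (z ^ n) (w ^ n) := by
  simpa only [zpow_natCast] using h.zpow n

include hζ hξ

theorem PB.mul (h : PB S U' ζ ξ z w) (h' : PB S U' ζ ξ z' w') : PB S U' ζ ξ (z * z') (w * w') := fun g hg => by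
  obtain ⟨j, h1, h2⟩ := h g hg
  obtain ⟨j', h1', h2'⟩ := h' g hg
  exact ⟨j + j', by rw [map_mul, h1, h1', zpow_add₀ (hζ.ne_zero (NeZero.ne _)), mul_mul_mul_comm],
    by rw [map_mul, h2, h2', zpow_add₀ (hξ.ne_zero (NeZero.ne _)), mul_mul_mul_comm]⟩

theorem PB.unique (h : PB S U' ζ ξ z w) (h' : PB S U' ζ ξ z w') (hz : z ≠ 0) : Fix U' (w / w') := fun g hg => by
  obtain ⟨j, h1, h2⟩ := h g hg
  obtain ⟨j', h1', h2'⟩ := h' g hg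
  rw [map_div₀, h2, h2', transfer hζ hξ (mul_right_cancel₀ hz (h1.symm.trans h1')),
    mul_div_mul_left _ _ (zpow_ne_zero _ (hξ.ne_zero (NeZero.ne _)))]

theorem PB.fix (h : PB S U' ζ ξ z w) : Fix U' (w ^ ℓ ^ k) := fun g hg => by
  obtain ⟨j, -, h2⟩ := h g hg
  rw [map_pow, h2, mul_pow, ← zpow_natCast, ← zpow_mul, mul_comm j, zpow_mul, hξ.zpow_eq_one, one_zpow, one_mul]

theorem PB.iff (h : PB S U' ζ ξ z w) (hz : z ≠ 0) (hw : w ≠ 0) {g : Gam} (hg : g ∈ U') :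
    S.a g z = z ↔ g w = w := by
  obtain ⟨j, h1, h2⟩ := h g hg
  rw [h1, h2, mul_eq_right₀ hz, mul_eq_right₀ hw, hζ.zpow_eq_one_iff_dvd, hξ.zpow_eq_one_iff_dvd]

variable (hE : IsSolvablyClosed E) (hg : Good S ℓ k U')
include hE hg

theorem pb_root : PB S U' ζ ξ ζ ξ := fun g h =>
  ⟨(cm ℓ k g : ZMod (ℓ ^ k)).val - 1, by
    rw [← zpow_add_one₀ (hζ.ne_zero (NeZero.ne _)), sub_add_cancel, zpow_natCast, cm_spec hE _ hζ, hg.eq g h], by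
    rw [← zpow_add_one₀ (hξ.ne_zero (NeZero.ne _)), sub_add_cancel, zpow_natCast, cm_spec sc_qb _ hξ]⟩

theorem pb_exists (hz : z ≠ 0) (hf : Fix (⊤ : Subgroup (E ≃ₐ[F] E)) (z ^ ℓ ^ k)) :
    ∃ w, w ≠ 0 ∧ PB S U' ζ ξ z w := by
  obtain ⟨ρ, -, hρ⟩ := kummer_cocycle ⊤ ζ hζ z hz hf
  obtain ⟨W, -, hW, hWz⟩ := exists_open_fix (F := F) {z} (Set.finite_singleton z)
  obtain ⟨w, hw, h⟩ := h90 U' hg.op (fun h => ξ ^ (ρ (S.a h)).val)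
    (fun _ _ => pow_ne_zero _ (hξ.ne_zero (NeZero.ne _))) (fun g h1 h h2 => by
      have h3 := hρ (S.a (g * h)) trivial
      rw [S.mul g (hg.le h1) h (hg.le h2), AlgEquiv.mul_apply, hρ (S.a h) trivial, map_mul, map_pow,
        hρ (S.a g) trivial, cm_spec hE _ hζ, hg.eq g h1, ← mul_assoc, ← pow_mul, ← pow_add,
        ← S.mul g (hg.le h1) h (hg.le h2)] at h3
      have h4 := (mul_right_cancel₀ hz h3).symm
      rw [← zpow_natCast, ← zpow_natCast] at h4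
      rw [map_pow, cm_spec sc_qb _ hξ, ← pow_mul, ← pow_add, add_comm, ← zpow_natCast, ← zpow_natCast]
      exact transfer hζ hξ h4) (S.pre W) (S.pre_open W hW) fun g h1 h2 => by
      have h3 := (hρ (S.a g) trivial).symm.trans (hWz z rfl _ h2.2)
      rwa [mul_eq_right₀ hz, hζ.pow_eq_one_iff_dvd, ← hξ.pow_eq_one_iff_dvd] at h3
  exact ⟨w, hw, fun g h1 => ⟨(ρ (S.a g)).val, by rw [zpow_natCast, hρ _ trivial], by rw [zpow_natCast, h g h1]⟩⟩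

theorem PB.descend (h : PB S U' ζ ξ z w) (hz : z ≠ 0) (hw : w ≠ 0) (hf : Fix (⊤ : Subgroup (E ≃ₐ[F] E)) (z ^ ℓ ^ k))
    {u : Qb} (hu : Fix U' u) (e : w ^ ℓ ^ k = u ^ ℓ ^ k) : ∃ y : F, z ^ ℓ ^ k = algebraMap F E y ^ ℓ ^ k := by
  have hu0 : u ≠ 0 := ne_zero_pow (NeZero.ne _) (e ▸ pow_ne_zero _ hw)
  obtain ⟨i, -, hi⟩ := hξ.eq_pow_of_pow_eq_one (ξ := u / w) (by rw [div_pow, e, div_self (pow_ne_zero _ hu0)])
  have h1 := ((pb_root hζ hξ hE hg).pow i).mul hζ hξ h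
  rw [hi, div_mul_cancel₀ _ hw] at h1
  have h2 := mul_ne_zero (pow_ne_zero i (hζ.ne_zero (NeZero.ne _))) hz
  have h3 : z ^ ℓ ^ k = (ζ ^ i * z) ^ ℓ ^ k := by rw [mul_pow, pow_right_comm, hζ.pow_eq_one, one_pow, one_mul]
  obtain ⟨V, hV, hmem, hdvd⟩ := S.exists_image U' hg.le hg.op
  obtain ⟨y, hy, -, h4⟩ := pow_descend hV le_top (m := ℓ ^ k)
    (by rw [Subgroup.relIndex_top_right]; exact (hg.cop.coprime_dvd_left hdvd).pow_right k) (pow_ne_zero _ hz) hf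
    (y := ζ ^ i * z) (fun g hg' => by
      obtain ⟨g, h5, rfl⟩ := (hmem g).1 hg'
      exact (h1.iff hζ hξ h2 hu0 h5).2 (hu g h5))
    (by rw [← h3, div_self (pow_ne_zero _ hz)]; exact IsOfFinOrder.one)
  obtain ⟨y, rfl⟩ := (InfiniteGalois.mem_range_algebraMap_iff_fixed (k := F) y).2 fun g => hy g trivial
  exact ⟨y, h4 h3⟩

theorem PB.dv (Y : HitSys S ℓ) (h : PB S U' ζ ξ z w) (hz : z ≠ 0) (hw : w ≠ 0)
    (hf : Fix (⊤ : Subgroup (E ≃ₐ[F] E)) (z ^ ℓ ^ k))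
    (hu : ∀ p A, A ≠ ⊤ → Y.Hit p A → A.valuation (z ^ ℓ ^ k) = 1) : Dv U' ℓ (ℓ ^ k) (w ^ ℓ ^ k) := by
  intro B p hB hp
  obtain ⟨τ, hτ, h1, -, h2, h3⟩ := Y.cover B p hB hp
  haveI := (Subgroup.normal_subgroupOf_iff hg.le).2 fun a b ha hb => hg.nm b hb a ha
  have h4 : τ ∈ U' := h1.mem_of_pow U' hg.op _ hg.cop ((U'.subgroupOf S.H).pow_index_mem ⟨τ, hτ⟩)
  suffices h5 : S.a τ z = z by
    obtain ⟨y, hy, e⟩ := h2 U' hg.le hg.op h4 w k hw (h.fix hζ hξ) ((h.iff hζ hξ hz hw h4).1 h5)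
    exact ⟨y, hy, by rw [map_pow, map_pow, e]⟩
  rcases h3 with h3 | ⟨A, hA, h5, h6⟩
  · rw [h3]; rfl
  · exact h6 z k ((pow_eq_one_iff_of_nonneg zero_le (NeZero.ne _)).1 (map_pow A.valuation z _ ▸ hu p A hA h5))
      (hf _ trivial)

theorem PB.eigen (h : PB S U' ζ ξ z w) (hz : z ≠ 0) (hw : w ≠ 0) (hf : Fix (⊤ : Subgroup (E ≃ₐ[F] E)) (z ^ ℓ ^ k))
    {g : Gam} (hH : g ∈ S.H) : ∃ u, Fix U' u ∧ g (w ^ ℓ ^ k) ^ (cm ℓ k (S.a g) : ZMod (ℓ ^ k)).val =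
      (w ^ ℓ ^ k) ^ (cm ℓ k g : ZMod (ℓ ^ k)).val * u ^ ℓ ^ k := by
  have ha := cm_spec hE (S.a g) hζ
  have hb := cm_spec sc_qb g hξ
  generalize (cm ℓ k (S.a g) : ZMod (ℓ ^ k)).val = a at ha ⊢
  generalize (cm ℓ k g : ZMod (ℓ ^ k)).val = b at hb ⊢
  have h1 : PB S U' ζ ξ (S.a g z ^ b) (g w ^ a) := fun t ht => by
    have h2 := hg.nm _ (S.H.inv_mem hH) t ht
    obtain ⟨j, h3, h4⟩ := h _ h2
    have h5 : g * (g⁻¹ * t * g⁻¹⁻¹) = t * g := by group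
    refine ⟨a * j * b, ?_, ?_⟩
    · rw [map_pow, ← AlgEquiv.mul_apply, ← S.mul t (hg.le ht) g hH, ← h5, S.mul g hH _ (hg.le h2), AlgEquiv.mul_apply,
        h3, map_mul, map_zpow₀, ha, mul_pow, zpow_mul, zpow_mul, zpow_natCast, zpow_natCast]
    · rw [map_pow, ← AlgEquiv.mul_apply, ← h5, AlgEquiv.mul_apply, h4, map_mul, map_zpow₀, hb, mul_pow,
        show (a : ℤ) * j * b = b * j * a by ring, zpow_mul, zpow_mul, zpow_natCast, zpow_natCast]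
  obtain ⟨i, -, hi⟩ := hζ.eq_pow_of_pow_eq_one (ξ := S.a g z / z) (by
    rw [div_pow, ← map_pow, hf _ trivial, div_self (pow_ne_zero _ hz)])
  have h2 := (((pb_root hζ hξ hE hg).pow i).mul hζ hξ h).pow b
  rw [hi, div_mul_cancel₀ _ hz] at h2
  refine ⟨_, h1.unique hζ hξ h2 (pow_ne_zero _ ((map_ne_zero _).2 hz)), ?_⟩
  rw [div_pow, pow_right_comm (ξ ^ i * w), mul_pow, pow_right_comm ξ, hξ.pow_eq_one, one_pow, one_mul,
    mul_div_cancel₀ _ (pow_ne_zero _ (pow_ne_zero _ hw)), map_pow, pow_right_comm]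

omit hζ hξ

theorem core (Y : HitSys S ℓ) : ∃ X : F → Qb,
    (∀ y, y ≠ 0 → (∀ p A, A ≠ ⊤ → Y.Hit p A → A.valuation (algebraMap F E y) = 1) →
      X y ≠ 0 ∧ Fix U' (X y) ∧ Dv U' ℓ (ℓ ^ k) (X y) ∧ ∀ g ∈ S.H, ∃ u, Fix U' u ∧
        g (X y) ^ (cm ℓ k (S.a g) : ZMod (ℓ ^ k)).val = X y ^ (cm ℓ k g : ZMod (ℓ ^ k)).val * u ^ ℓ ^ k) ∧
    ∀ y y', y ≠ 0 → y' ≠ 0 → ∀ (c : ℕ) (u : Qb), Fix U' u → (X y / X y') ^ c = u ^ ℓ ^ k →
      ∃ v : F, (y / y') ^ c = v ^ ℓ ^ k := by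
  haveI := cz F E
  obtain ⟨ζ, hζ⟩ := sc_prim hE (NeZero.pos (ℓ ^ k))
  obtain ⟨ξ, hξ⟩ := sc_prim sc_qb (NeZero.pos (ℓ ^ k))
  choose z hz using fun y : F => sc_root hE (NeZero.pos (ℓ ^ k)) (algebraMap F E y)
  have hf : ∀ y, Fix (⊤ : Subgroup (E ≃ₐ[F] E)) (z y ^ ℓ ^ k) := fun y g _ => by rw [hz, g.commutes]
  have h0 : ∀ y, y ≠ 0 → z y ≠ 0 := fun y hy => ne_zero_pow (NeZero.ne (ℓ ^ k)) (hz y ▸ (map_ne_zero _).2 hy)
  choose! w hw hp using fun y hy => pb_exists hζ hξ hE hg (h0 y hy) (hf y)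
  refine ⟨fun y => w y ^ ℓ ^ k, fun y hy hu => ⟨pow_ne_zero _ (hw y hy), (hp y hy).fix hζ hξ,
    (hp y hy).dv hζ hξ hE hg Y (h0 y hy) (hw y hy) (hf y) (by rwa [hz]),
    fun g hH => (hp y hy).eigen hζ hξ hE hg (h0 y hy) (hw y hy) (hf y) hH⟩, fun y y' hy hy' c u hu e => ?_⟩
  have h1 := ((hp y hy).mul hζ hξ ((hp y' hy').zpow (-1))).pow c
  rw [zpow_neg_one, zpow_neg_one, ← div_eq_mul_inv, ← div_eq_mul_inv] at h1
  have h2 : ((z y / z y') ^ c) ^ ℓ ^ k = algebraMap F E ((y / y') ^ c) := by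
    rw [pow_right_comm, div_pow, hz, hz, map_pow, map_div₀]
  obtain ⟨v, hv⟩ := h1.descend hζ hξ hE hg (pow_ne_zero _ (div_ne_zero (h0 y hy) (h0 y' hy')))
    (pow_ne_zero _ (div_ne_zero (hw y hy) (hw y' hy'))) (fun g _ => by rw [h2, g.commutes]) hu
    (by rw [pow_right_comm, div_pow, e])
  exact ⟨v, (algebraMap F E).injective (by rw [← h2, hv, map_pow])⟩

end Crest.Agent.R18.KP
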